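import Vale.Agent.P097.H328.W.Pos
import Vale.Agent.P097.TC.Defs

/-!
# P097, case [c], row A5.R2-POS, world form: `RG` and the position bound for `TC.Mi`

No hypothesis about R2 points: `S = deriv Mi / Λ ^ 3` satisfies `F' S = sin del` and
`p = q cos del + q' S` everywhere.
-/

open Complex Metric Filter Topology Set

namespace Vale.Agent.P097.H328.W

open Vale.Agent.P097.H264 Vale.Agent.P097.H881 Vale.Agent.P097.TC

theorem isOpen_Sb (b : ℝ) : IsOpen (Sb b) :=
  isOpen_lt (continuous_abs.comp continuous_im) continuous_const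

/-- derivative of the incidence in the position -/
theorem deriv_Mi {b : ℝ} {F q : ℂ → ℂ} (hF : DifferentiableOn ℂ F (Sb b))
    (hq : DifferentiableOn ℂ q (Sb b)) {x : ℂ} (hx : x ∈ Sb b) (a p : ℂ) :
    deriv (Mi F q a p) x = deriv (deriv F) x * (q x * Complex.cos (a - F x) - p) +
      (q x * deriv F x ^ 2 + deriv (deriv q) x) * Complex.sin (a - F x) := by
  have hn : Sb b ∈ 𝓝 x := (isOpen_Sb b).mem_nhds hx
  have h1 := (hF.differentiableAt hn).hasDerivAt
  have h2 := (hq.differentiableAt hn).hasDerivAt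
  have h3 := ((hF.deriv (isOpen_Sb b)).differentiableAt hn).hasDerivAt
  have h4 := ((hq.deriv (isOpen_Sb b)).differentiableAt hn).hasDerivAt
  have h5 : HasDerivAt (fun y => a - F y) (-deriv F x) x := by
    simpa using h1.const_sub a
  have h6 := (h3.mul ((h2.mul h5.ccos).sub_const p)).add (h4.mul h5.csin)
  have h7 : HasDerivAt (Mi F q a p) _ x := h6
  rw [h7.deriv]
  simp only [Pi.mul_apply]
  ring

/-- the position factor -/
noncomputable def SS (Λ : ℝ) (F q : ℂ → ℂ) (a p x : ℂ) : ℂ := deriv (Mi F q a p) x / (Λ : ℂ) ^ 3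

theorem SS_sin {Λ b : ℝ} {F q : ℂ → ℂ} (cv : Cv Λ b F q) {x : ℂ} (hx : x ∈ Sb b) {a p : ℂ}
    (h : Mi F q a p x = 0) : SS Λ F q a p x * deriv F x = Complex.sin (a - F x) := by
  have hΛ : (Λ : ℂ) ≠ 0 := by exact_mod_cast cv.Λ0.ne'
  have hw := cv.wr x hx
  rw [SS, deriv_Mi cv.dF cv.dq hx, div_mul_eq_mul_div, div_eq_iff (pow_ne_zero 3 hΛ), ← hw]
  unfold Mi at h
  linear_combination (deriv (deriv F) x) * h

theorem SS_p {Λ b : ℝ} {F q : ℂ → ℂ} (cv : Cv Λ b F q) {x : ℂ} (hx : x ∈ Sb b) {a p : ℂ}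
    (h : Mi F q a p x = 0) :
    p = q x * Complex.cos (a - F x) + deriv q x * SS Λ F q a p x := by
  have hΛ : (Λ : ℂ) ≠ 0 := by exact_mod_cast cv.Λ0.ne'
  have hw := cv.wr x hx
  have h3 : (Λ : ℂ) ^ 3 ≠ 0 := pow_ne_zero 3 hΛ
  have key : (Λ : ℂ) ^ 3 * p = (Λ : ℂ) ^ 3 * (q x * Complex.cos (a - F x)) +
      deriv q x * deriv (Mi F q a p) x := by
    rw [deriv_Mi cv.dF cv.dq hx, ← hw]
    unfold Mi at h
    linear_combination (-(q x * deriv F x ^ 2 + deriv (deriv q) x)) * h
  rw [SS]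
  field_simp
  linear_combination key

variable {E : Type*} [NormedAddCommGroup E] [NormedSpace ℂ E]

theorem SS_diff {Λ b : ℝ} {F q : ℂ → ℂ} (cv : Cv Λ b F q) {U : Set E} (_hU : IsOpen U)
    {al p th : E → ℂ} (ha : DifferentiableOn ℂ al U) (hp : DifferentiableOn ℂ p U)
    (ht : DifferentiableOn ℂ th U) (hm : ∀ z ∈ U, th z ∈ Sb b) :
    DifferentiableOn ℂ (fun z => SS Λ F q (al z) (p z) (th z)) U := by
  have hm' : MapsTo th U (Sb b) := hm
  have e1 := cv.dF.comp ht hm'
  have e2 := cv.dq.comp ht hm'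
  have e3 := (cv.dF.deriv (isOpen_Sb b)).comp ht hm'
  have e4 := ((cv.dF.deriv (isOpen_Sb b)).deriv (isOpen_Sb b)).comp ht hm'
  have e5 := ((cv.dq.deriv (isOpen_Sb b)).deriv (isOpen_Sb b)).comp ht hm'
  have e6 : DifferentiableOn ℂ (fun z => (deriv (deriv F) (th z) *
      (q (th z) * Complex.cos (al z - F (th z)) - p z) +
      (q (th z) * deriv F (th z) ^ 2 + deriv (deriv q) (th z)) *
        Complex.sin (al z - F (th z))) / (Λ : ℂ) ^ 3) U := by
    have c1 : DifferentiableOn ℂ (fun z => al z - F (th z)) U := ha.sub e1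
    have c2 := (e4.mul ((e2.mul c1.ccos).sub hp)).add (((e2.mul (e3.pow 2)).add e5).mul c1.csin)
    have c3 : DifferentiableOn ℂ (fun z => (deriv (deriv F) (th z) *
      (q (th z) * Complex.cos (al z - F (th z)) - p z) +
      (q (th z) * deriv F (th z) ^ 2 + deriv (deriv q) (th z)) *
        Complex.sin (al z - F (th z)))) U := c2
    simp only [div_eq_mul_inv]
    exact c3.mul_const _
  refine e6.congr fun z hz => ?_
  rw [SS, deriv_Mi cv.dF cv.dq (hm z hz)]

/-- **the data `RG` of a vertex** -/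
theorem rg {Λ b : ℝ} {F q : ℂ → ℂ} (cv : Cv Λ b F q) {U : Set E}
    {al p th : E → ℂ} (ha : DifferentiableOn ℂ al U)
    (ht : DifferentiableOn ℂ th U) (hm : ∀ z ∈ U, th z ∈ Sb b)
    (hi : ∀ z ∈ U, Mi F q (al z) (p z) (th z) = 0)
    (hs : ∀ z ∈ U, deriv (Mi F q (al z) (p z)) (th z) ≠ 0) {M : ℝ}
    (hM : ∀ z ∈ U, ‖deriv F (th z)‖ ≤ M) :
    RG U M (fun z => 2 * I * (al z - F (th z))) (fun z => deriv F (th z)) := by
  have hm' : MapsTo th U (Sb b) := hm
  have hΛ : (Λ : ℂ) ≠ 0 := by exact_mod_cast cv.Λ0.ne'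
  refine ⟨(ha.sub (cv.dF.comp ht hm')).const_mul _, (cv.dF.deriv (isOpen_Sb b)).comp ht hm', ?_,
    hM⟩
  intro z hz h1
  have h2 : Complex.sin (al z - F (th z)) = 0 := by
    have h3 : Complex.exp ((al z - F (th z)) * I) * Complex.exp ((al z - F (th z)) * I) = 1 := by
      rw [← Complex.exp_add, ← h1]
      congr 1
      ring
    have h4 : Complex.exp (-(al z - F (th z)) * I) = Complex.exp ((al z - F (th z)) * I) := by
      have h5 : Complex.exp (-(al z - F (th z)) * I) * Complex.exp ((al z - F (th z)) * I) = 1 := by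
        rw [← Complex.exp_add, neg_mul, neg_add_cancel, Complex.exp_zero]
      exact mul_right_cancel₀ (Complex.exp_ne_zero ((al z - F (th z)) * I)) (by rw [h5, h3])
    rw [Complex.sin, h4, sub_self, zero_mul, zero_div]
  have h3 := SS_sin cv (hm z hz) (hi z hz)
  rw [h2] at h3
  rcases mul_eq_zero.mp h3 with h4 | h4
  · exfalso
    rw [SS, div_eq_zero_iff] at h4
    rcases h4 with h4 | h4
    · exact hs z hz h4
    · exact pow_ne_zero 3 hΛ h4
  · exact h4

/-- `|S| |F'| ≤ exp (|Re (2 i del)| / 2)` -/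
theorem SS_bd {Λ b : ℝ} {F q : ℂ → ℂ} (cv : Cv Λ b F q) {x : ℂ} (hx : x ∈ Sb b) {a p : ℂ}
    (h : Mi F q a p x = 0) :
    ‖SS Λ F q a p x‖ * ‖deriv F x‖ ≤ Real.exp (|(2 * I * (a - F x)).re| / 2) := by
  rw [← norm_mul, SS_sin cv hx h]
  refine (norm_sin_le' _).trans (Real.exp_le_exp.mpr ?_)
  have : (2 * I * (a - F x)).re = -(2 * (a - F x).im) := by
    rw [mul_assoc]
    simp [Complex.mul_re, Complex.mul_im]
    ring
  rw [this, abs_neg, abs_mul, abs_of_pos (by norm_num : (0 : ℝ) < 2)]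
  linarith

/-- constant of `pos_fin` -/
noncomputable def KQ : ℝ := KP + KR

/-- **row A5.R2-POS**: along a composed chain `JR` from a base point `z'` with `F' (theta) ≠ 0` the
direction AND the position of the line are bounded at every point near the end, R2 points
included -/
theorem pos_fin {Λ b : ℝ} {F q : ℂ → ℂ} (cv : Cv Λ b F q) {U : Set E} (hU : IsOpen U)
    {al p th : E → ℂ} (ha : DifferentiableOn ℂ al U) (hp : DifferentiableOn ℂ p U)
    (ht : DifferentiableOn ℂ th U) (hm : ∀ z ∈ U, th z ∈ Sb b)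
    (hi : ∀ z ∈ U, Mi F q (al z) (p z) (th z) = 0)
    (hs : ∀ z ∈ U, deriv (Mi F q (al z) (p z)) (th z) ≠ 0) {M : ℝ}
    (hM : ∀ z ∈ U, ‖deriv F (th z)‖ ≤ M) {a : ℝ} {z w : E} {ρ R : ℝ}
    (h : JR U a z ρ w (R / 80)) (h1a : 1 ≤ a) (hR : 0 < R) (hwU : ball w R ⊆ U) {z' : E}
    (hz' : ‖z' - z‖ ≤ ρ) (h0 : deriv F (th z') ≠ 0) (hz'U : z' ∈ U) {v : E}
    (hv : ‖v - w‖ ≤ R / 80) :
    ‖2 * I * (al v - F (th v)) - 2 * I * (al z' - F (th z'))‖ ≤ (KR * a - 1) *
        St M (fun z => 2 * I * (al z - F (th z))) (fun z => deriv F (th z)) z' ∧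
    M * ‖SS Λ F q (al v) (p v) (th v)‖ ≤ Real.exp (KP * a *
        St M (fun z => 2 * I * (al z - F (th z))) (fun z => deriv F (th z)) z') ∧
    M * ‖p v‖ ≤ (M * ‖q (th v)‖ + ‖deriv q (th v)‖) * Real.exp (KQ * a *
        St M (fun z => 2 * I * (al z - F (th z))) (fun z => deriv F (th z)) z') := by
  have hG := rg cv ha ht hm hi hs hM
  have hSd := SS_diff cv hU ha hp ht hm
  have h1 := h.fin h1a hR hwU hG hz' h0 hz'U hv
  have h2 := fin_pos h hR hwU hG hz' h0 hSd (fun y hy => SS_bd cv (hm y hy) (hi y hy)) hv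
  refine ⟨h1, h2, ?_⟩
  set T := St M (fun z => 2 * I * (al z - F (th z))) (fun z => deriv F (th z)) z' with hT
  have hvU : v ∈ U := hwU (by
    rw [mem_ball, dist_eq_norm]
    linarith)
  have hM0 : 0 ≤ M := (norm_nonneg _).trans (hM v hvU)
  have hT1 : 1 ≤ T := St_pos hG hz'U h0
  have hLS := LS_one
  have hKP := KP_one
  have hKR := KR_one
  have haT : 0 ≤ a * T := by positivity
  have him : |(al v - F (th v)).im| ≤ KQ * a * T := by
    have e1 : |(2 * I * (al v - F (th v))).re| = 2 * |(al v - F (th v)).im| := by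
      have : (2 * I * (al v - F (th v))).re = -(2 * (al v - F (th v)).im) := by
        rw [mul_assoc]
        simp [Complex.mul_re, Complex.mul_im]
        ring
      rw [this, abs_neg, abs_mul, abs_of_pos (by norm_num : (0 : ℝ) < 2)]
    have e2 := Complex.abs_re_le_norm (2 * I * (al v - F (th v)) - 2 * I * (al z' - F (th z')))
    rw [Complex.sub_re] at e2
    have e3 := abs_sub_abs_le_abs_sub (2 * I * (al v - F (th v))).re
      (2 * I * (al z' - F (th z'))).re
    have e4 : |(2 * I * (al z' - F (th z'))).re| ≤ T := by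
      have hGb : 0 < ‖deriv F (th z')‖ := norm_pos_iff.mpr h0
      have := Real.log_nonneg ((one_le_div hGb).mpr (hM z' hz'U))
      rw [hT]
      unfold St
      linarith
    have e5 : KQ * a * T = KP * (a * T) + KR * a * T := by unfold KQ; ring
    have e6 : 0 ≤ KP * (a * T) := by positivity
    have e7 : 0 ≤ KR * a * T := by
      rw [mul_assoc]; positivity
    have e8 : (KR * a - 1) * T = KR * a * T - T := by ring
    rw [e8] at h1
    linarith [abs_nonneg ((al v - F (th v)).im)]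
  have hpb := p_bound (SS_p cv (hm v hvU) (hi v hvU))
  have e9 : Real.exp (KP * a * T) ≤ Real.exp (KQ * a * T) := by
    refine Real.exp_le_exp.mpr ?_
    have : KQ * a * T = KP * a * T + KR * (a * T) := by unfold KQ; ring
    rw [this]
    have : 0 ≤ KR * (a * T) := by positivity
    linarith
  calc M * ‖p v‖ ≤ M * (‖q (th v)‖ * Real.exp |(al v - F (th v)).im| +
        ‖deriv q (th v)‖ * ‖SS Λ F q (al v) (p v) (th v)‖) := by gcongr
    _ = M * ‖q (th v)‖ * Real.exp |(al v - F (th v)).im| +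
        ‖deriv q (th v)‖ * (M * ‖SS Λ F q (al v) (p v) (th v)‖) := by ring
    _ ≤ M * ‖q (th v)‖ * Real.exp (KQ * a * T) + ‖deriv q (th v)‖ * Real.exp (KQ * a * T) := by
        gcongr
        exact h2.trans e9
    _ = _ := by ring

end Vale.Agent.P097.H328.W
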