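import Vale.Agent.P097.H881.Sc3

/-!
# P097, case [c], row A5.R2-POS: the position bound at points where the vertex is near an R2 point

`p = q (theta) cos del + q' (theta) S`, `S = sin del / F' (theta)`. Here: if `S * G` is bounded
(`G = F' o theta`, which may vanish) and `G` is not small at one base point, then `S` is bounded.
-/

open Complex Metric Filter Topology Set

namespace Vale.Agent.P097.H328.W

open Vale.Agent.P097.H264 Vale.Agent.P097.H881

/-- a holomorphic logarithm on a disc -/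
theorem disc_log {c : ℂ} {R : ℝ} {f : ℂ → ℂ} (hR : 0 < R) (hf : DifferentiableOn ℂ f (ball c R))
    (h0 : ∀ z ∈ ball c R, f z ≠ 0) :
    ∃ g : ℂ → ℂ, DifferentiableOn ℂ g (ball c R) ∧ ∀ z ∈ ball c R, Complex.exp (g z) = f z := by
  have hd : DifferentiableOn ℂ (fun z => deriv f z / f z) (ball c R) :=
    (hf.deriv isOpen_ball).div hf h0
  obtain ⟨k, hk⟩ := hd.isExactOn_ball
  have hkd : DifferentiableOn ℂ k (ball c R) := fun z hz => (hk z hz).differentiableAt.differentiableWithinAt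
  obtain ⟨a, ha⟩ : ∃ a : ℂ, Complex.exp a = f c := by
    refine ⟨Complex.log (f c), Complex.exp_log (h0 c (mem_ball_self hR))⟩
  refine ⟨fun z => k z - k c + a, (hkd.sub_const _).add_const _, ?_⟩
  have key : ∀ z ∈ ball c R, HasDerivAt (fun z => Complex.exp (-(k z - k c + a)) * f z) 0 z := by
    intro z hz
    have h1 := (((hk z hz).sub_const (k c)).add_const a).neg.cexp.mul
      (hf.differentiableAt (isOpen_ball.mem_nhds hz)).hasDerivAt
    refine h1.congr_deriv ?_
    have := h0 z hz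
    field_simp
    ring
  have hconst : ∀ z ∈ ball c R, Complex.exp (-(k z - k c + a)) * f z = 1 := by
    intro z hz
    have h2 := isOpen_ball.is_const_of_deriv_eq_zero (convex_ball c R).isPreconnected
      (f := fun z => Complex.exp (-(k z - k c + a)) * f z)
      (fun z hz => (key z hz).differentiableAt.differentiableWithinAt)
      (fun z hz => (key z hz).deriv) hz (mem_ball_self hR)
    rw [h2, sub_self, zero_add, ← ha, ← Complex.exp_add]
    simp
  intro z hz
  have h3 := hconst z hz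
  rw [Complex.exp_neg] at h3
  have h4 := Complex.exp_ne_zero (k z - k c + a)
  field_simp at h3
  exact h3.symm

/-- the zero free case: `‖G 0‖ ^ 2 ≤ ‖G 1‖` -/
theorem zf_harn {G : ℂ → ℂ} (hG : DifferentiableOn ℂ G (ball 0 4))
    (h1 : ∀ z ∈ ball (0 : ℂ) 4, ‖G z‖ ≤ 1) (h0 : ∀ z ∈ ball (0 : ℂ) 4, G z ≠ 0) :
    ‖G 0‖ ^ 2 ≤ ‖G 1‖ := by
  obtain ⟨g, hg, hge⟩ := disc_log (by norm_num) hG h0
  have hre : ∀ z ∈ ball (0 : ℂ) 4, Real.exp (g z).re = ‖G z‖ := by
    intro z hz
    rw [← hge z hz, Complex.norm_exp]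
  have hle : ∀ z ∈ ball (0 : ℂ) 4, (g z).re ≤ 0 := by
    intro z hz
    have := hre z hz
    have h2 := h1 z hz
    rw [← this] at h2
    have h3 : Real.exp (g z).re ≤ Real.exp 0 := by rwa [Real.exp_zero]
    exact Real.exp_le_exp.mp h3
  have hm0 : (0 : ℂ) ∈ ball (0 : ℂ) 4 := mem_ball_self (by norm_num)
  have hm1 : (1 : ℂ) ∈ ball (0 : ℂ) 4 := by simp
  have key : -(g 1).re ≤ 2 * -(g 0).re := by
    refine le_of_forall_pos_le_add fun ε hε => ?_
    have h5 := (H699.harnack (u := fun z => -g z + ε) (c := 0) (R := 4) (z := 1)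
      (hg.neg.add_const _) (fun z hz => by
        simp only [add_re, neg_re, ofReal_re]
        linarith [hle z hz]) (by simp) (by norm_num)).2
    simp only [add_re, neg_re, ofReal_re] at h5
    linarith
  rw [← hre 0 hm0, ← hre 1 hm1, ← Real.exp_nat_mul]
  refine Real.exp_le_exp.mpr ?_
  push_cast
  linarith

/-- induction on the number of zeros -/
theorem zf_core {S : ℂ → ℂ} {B : ℝ} (hS : DiffContOnCl ℂ S (ball 0 8)) (n : ℕ) : ∀ G : ℂ → ℂ,
    DiffContOnCl ℂ G (ball 0 8) → (∀ z ∈ sphere (0 : ℂ) 8, ‖G z‖ ≤ 1) →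
    (∀ z ∈ sphere (0 : ℂ) 8, ‖S z‖ * ‖G z‖ ≤ B) → (1 / 2 : ℝ) ^ n < ‖G 0‖ →
    ‖S 1‖ * ‖G 0‖ ^ 2 ≤ B := by
  have hcl : closure (ball (0 : ℂ) 8) = closedBall 0 8 := closure_ball _ (by norm_num)
  have hfr : frontier (ball (0 : ℂ) 8) = sphere 0 8 := frontier_ball _ (by norm_num)
  have hmax : ∀ G : ℂ → ℂ, DiffContOnCl ℂ G (ball 0 8) → ∀ C : ℝ,
      (∀ z ∈ sphere (0 : ℂ) 8, ‖G z‖ ≤ C) → ∀ z ∈ closedBall (0 : ℂ) 8, ‖G z‖ ≤ C := by
    intro G hG C hC z hz
    exact Complex.norm_le_of_forall_mem_frontier_norm_le (U := ball (0 : ℂ) 8) isBounded_ball hG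
      (C := C) (fun z hz => hC z (by rwa [hfr] at hz)) (by rwa [hcl])
  induction n with
  | zero =>
    intro G hG h1 h2 h3
    have := hmax G hG 1 h1 0 (by simp)
    rw [pow_zero] at h3
    linarith
  | succ n ih =>
    intro G hG h1 h2 h3
    have hG0 : 0 < ‖G 0‖ := lt_trans (by positivity) h3
    by_cases hz : ∃ a : ℂ, ‖a‖ ≤ 4 ∧ G a = 0
    · obtain ⟨a, ha, hfa⟩ := hz
      have ha0 : a ≠ 0 := by
        rintro rfl
        rw [hfa, norm_zero] at hG0
        exact lt_irrefl _ hG0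
      have haR : a ∈ ball (0 : ℂ) 8 := by
        rw [mem_ball_zero_iff]; linarith
      set g : ℂ → ℂ := fun z => dslope G a z * ((8 : ℂ) ^ 2 - (starRingEnd ℂ) a * z) / 8 with hg
      have hsl : ∀ z, z ≠ a → dslope G a z = G z / (z - a) := by
        intro z hz
        rw [dslope_of_ne G hz, slope_def_field, hfa, sub_zero]
      have hgd : DiffContOnCl ℂ g (ball 0 8) := by
        constructor
        · have h1 : DifferentiableOn ℂ (dslope G a) (ball 0 8) :=
            (Complex.differentiableOn_dslope (isOpen_ball.mem_nhds haR)).mpr hG.differentiableOn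
          have h2 : DifferentiableOn ℂ (fun z : ℂ => (8 : ℂ) ^ 2 - (starRingEnd ℂ) a * z)
            (ball 0 8) := by fun_prop
          exact (h1.mul h2).div_const _
        · rw [hcl]
          have h1 : ContinuousOn (dslope G a) (closedBall 0 8) := by
            rw [continuousOn_dslope
              (mem_of_superset (isOpen_ball.mem_nhds haR) ball_subset_closedBall)]
            refine ⟨by simpa [hcl] using hG.continuousOn, ?_⟩
            exact hG.differentiableAt isOpen_ball haR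
          have h2 : ContinuousOn (fun z : ℂ => (8 : ℂ) ^ 2 - (starRingEnd ℂ) a * z)
            (closedBall 0 8) := by fun_prop
          exact (h1.mul h2).div_const _
      have hgn : ∀ z ∈ sphere (0 : ℂ) 8, ‖g z‖ = ‖G z‖ := by
        intro z hz
        have hzR : ‖z‖ = 8 := by simpa using hz
        have hza : z ≠ a := by
          rintro rfl
          linarith
        have hnum : ‖(8 : ℂ) ^ 2 - (starRingEnd ℂ) a * z‖ = 8 * ‖z - a‖ := by
          have h1 : (8 : ℂ) ^ 2 = z * (starRingEnd ℂ) z := by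
            rw [Complex.mul_conj, Complex.normSq_eq_norm_sq, hzR]
            push_cast; ring
          rw [h1, show z * (starRingEnd ℂ) z - (starRingEnd ℂ) a * z
            = z * (starRingEnd ℂ) (z - a) by rw [map_sub]; ring, norm_mul, Complex.norm_conj, hzR]
        have hne : ‖z - a‖ ≠ 0 := norm_ne_zero_iff.mpr (sub_ne_zero.mpr hza)
        have h8 : ‖(8 : ℂ)‖ = 8 := by simp
        rw [hg]
        simp only []
        rw [hsl z hza, norm_div, norm_mul, norm_div, hnum, h8]
        field_simp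
      have hg0 : ‖g 0‖ = ‖G 0‖ * 8 / ‖a‖ := by
        have h8 : ‖(8 : ℂ)‖ = 8 := by simp
        rw [hg]
        simp only []
        rw [hsl 0 (Ne.symm ha0), norm_div, norm_mul, norm_div, zero_sub, norm_neg, mul_zero,
          sub_zero, norm_pow, h8]
        field_simp
      have hapos : 0 < ‖a‖ := norm_pos_iff.mpr ha0
      have hg2 : 2 * ‖G 0‖ ≤ ‖g 0‖ := by
        rw [hg0, le_div_iff₀ hapos]
        nlinarith
      have hI := ih g hgd (fun z hz => by rw [hgn z hz]; exact h1 z hz)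
        (fun z hz => by rw [hgn z hz]; exact h2 z hz) (by
          rw [pow_succ] at h3
          linarith)
      refine le_trans ?_ hI
      have h5 : ‖G 0‖ ≤ ‖g 0‖ := by linarith
      gcongr
    · push Not at hz
      have hsub : ball (0 : ℂ) 4 ⊆ closedBall 0 8 := by
        intro z hz
        rw [mem_ball_zero_iff] at hz
        rw [mem_closedBall_zero_iff]
        linarith
      have hsub' : ball (0 : ℂ) 4 ⊆ ball 0 8 := ball_subset_ball (by norm_num)
      have hH := zf_harn (hG.differentiableOn.mono hsub') (fun z hz => hmax G hG 1 h1 z (hsub hz))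
        (fun z hz' => hz z (by rw [mem_ball_zero_iff] at hz'; exact hz'.le))
      have hSG := hmax (fun z => S z * G z) ⟨hS.1.mul hG.1, hS.2.mul hG.2⟩ B
        (fun z hz => by rw [norm_mul]; exact h2 z hz) 1 (by simp)
      rw [norm_mul] at hSG
      calc ‖S 1‖ * ‖G 0‖ ^ 2 ≤ ‖S 1‖ * ‖G 1‖ := by gcongr
        _ ≤ B := hSG

variable {E : Type*} [NormedAddCommGroup E] [NormedSpace ℂ E]

/-- **division bound**: `S G` bounded, `G` bounded and not small at `b` ==> `S` bounded near `b` -/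
theorem zf_bd {S G : E → ℂ} {b z : E} {R M A : ℝ} (hR : 0 < R) (hS : DifferentiableOn ℂ S (ball b R))
    (hG : DifferentiableOn ℂ G (ball b R)) (hM : ∀ y ∈ ball b R, ‖G y‖ ≤ M) (h0 : G b ≠ 0)
    (hA : ∀ y ∈ ball b R, ‖S y‖ * ‖G y‖ ≤ Real.exp A) (hz : ‖z - b‖ ≤ R / 16) :
    M * ‖S z‖ ≤ Real.exp (A + 2 * Real.log (M / ‖G b‖)) := by
  have hGb : 0 < ‖G b‖ := norm_pos_iff.mpr h0
  have hM0 : 0 < M := hGb.trans_le (hM b (mem_ball_self hR))
  set φ : ℂ → E := fun t => b + t • (z - b) with hφ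
  have hmap : MapsTo φ (ball 0 16) (ball b R) := by
    intro t ht
    rw [mem_ball_zero_iff] at ht
    rw [hφ, mem_ball, dist_eq_norm, add_sub_cancel_left, norm_smul]
    rcases eq_or_lt_of_le (norm_nonneg (z - b)) with h0 | h0
    · rw [← h0, mul_zero]; exact hR
    · calc ‖t‖ * ‖z - b‖ < 16 * ‖z - b‖ := by gcongr
        _ ≤ R := by linarith
  have hφd : DifferentiableOn ℂ φ (ball 0 16) := by rw [hφ]; fun_prop
  have hφ0 : φ 0 = b := by simp [hφ]
  have hφ1 : φ 1 = z := by simp [hφ]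
  have hsub : closure (ball (0 : ℂ) 8) ⊆ ball 0 16 := by
    rw [closure_ball _ (by norm_num)]
    exact closedBall_subset_ball (by norm_num)
  have hsph : sphere (0 : ℂ) 8 ⊆ ball 0 16 := by
    refine sphere_subset_closedBall.trans (closedBall_subset_ball (by norm_num))
  have hS' : DiffContOnCl ℂ (fun t => S (φ t)) (ball 0 8) :=
    DifferentiableOn.diffContOnCl ((hS.comp hφd hmap).mono hsub)
  have hG' : DiffContOnCl ℂ (fun t => G (φ t) / M) (ball 0 8) :=
    DifferentiableOn.diffContOnCl (((hG.comp hφd hmap).mono hsub).div_const _)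
  have hnM : ∀ t : ℂ, ‖G (φ t) / (M : ℂ)‖ = ‖G (φ t)‖ / M := by
    intro t
    rw [norm_div, Complex.norm_real, Real.norm_eq_abs, abs_of_pos hM0]
  obtain ⟨n, hn⟩ := exists_pow_lt_of_lt_one (show 0 < ‖G b‖ / M by positivity)
    (show (1 / 2 : ℝ) < 1 by norm_num)
  have hcore := zf_core (S := fun t => S (φ t)) (B := Real.exp A / M) hS' n
    (fun t => G (φ t) / M) hG'
    (fun t ht => by
      rw [hnM, div_le_one hM0]
      exact hM _ (hmap (hsph ht)))
    (fun t ht => by
      rw [hnM, ← mul_div_assoc]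
      gcongr
      exact hA _ (hmap (hsph ht)))
    (by rw [hnM, hφ0]; exact hn)
  simp only [hφ1] at hcore
  rw [hnM, hφ0, div_pow, ← mul_div_assoc, div_le_div_iff₀ (by positivity) hM0] at hcore
  rw [Real.exp_add, mul_comm (2 : ℝ), Real.exp_mul, Real.exp_log (by positivity), Real.rpow_ofNat,
    div_pow, ← mul_div_assoc, le_div_iff₀ (by positivity)]
  have h6 : M * ‖S z‖ * ‖G b‖ ^ 2 = ‖S z‖ * ‖G b‖ ^ 2 * M := by ring
  rw [h6]
  exact hcore

theorem norm_sin_le' (w : ℂ) : ‖Complex.sin w‖ ≤ Real.exp |w.im| := by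
  rw [Complex.sin, norm_div, norm_mul, Complex.norm_I, mul_one, Complex.norm_ofNat,
    div_le_iff₀ (by norm_num)]
  have h1 : ‖Complex.exp (-w * I)‖ ≤ Real.exp |w.im| := by
    rw [Complex.norm_exp]
    refine Real.exp_le_exp.mpr ?_
    simp only [mul_re, neg_re, I_re, mul_zero, neg_im, I_im, mul_one, zero_sub, neg_neg]
    exact le_abs_self _
  have h2 : ‖Complex.exp (w * I)‖ ≤ Real.exp |w.im| := by
    rw [Complex.norm_exp]
    refine Real.exp_le_exp.mpr ?_
    simp only [mul_re, I_re, mul_zero, I_im, mul_one, zero_sub]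
    exact neg_le_abs _
  calc ‖Complex.exp (-w * I) - Complex.exp (w * I)‖ ≤ ‖Complex.exp (-w * I)‖ +
        ‖Complex.exp (w * I)‖ := norm_sub_le _ _
    _ ≤ Real.exp |w.im| * 2 := by linarith

theorem norm_cos_le' (w : ℂ) : ‖Complex.cos w‖ ≤ Real.exp |w.im| := by
  rw [Complex.cos, norm_div, Complex.norm_ofNat, div_le_iff₀ (by norm_num)]
  have h1 : ‖Complex.exp (-w * I)‖ ≤ Real.exp |w.im| := by
    rw [Complex.norm_exp]
    refine Real.exp_le_exp.mpr ?_
    simp only [mul_re, neg_re, I_re, mul_zero, neg_im, I_im, mul_one, zero_sub, neg_neg]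
    exact le_abs_self _
  have h2 : ‖Complex.exp (w * I)‖ ≤ Real.exp |w.im| := by
    rw [Complex.norm_exp]
    refine Real.exp_le_exp.mpr ?_
    simp only [mul_re, I_re, mul_zero, I_im, mul_one, zero_sub]
    exact neg_le_abs _
  calc ‖Complex.exp (w * I) + Complex.exp (-w * I)‖ ≤ ‖Complex.exp (w * I)‖ +
        ‖Complex.exp (-w * I)‖ := norm_add_le _ _
    _ ≤ Real.exp |w.im| * 2 := by linarith

/-- **position, good base point at distance `R / 512`** -/
theorem pos_at {F G S : E → ℂ} {b z : E} {R M : ℝ} (hR : 0 < R) (h : RG (ball b R) M F G)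
    (h0 : G b ≠ 0) (hS : DifferentiableOn ℂ S (ball b R))
    (hA : ∀ y ∈ ball b R, ‖S y‖ * ‖G y‖ ≤ Real.exp (|(F y).re| / 2)) (hz : ‖z - b‖ ≤ R / 512) :
    M * ‖S z‖ ≤ Real.exp ((3 + LS) * St M F G b) := by
  have hSt := St_pos h (mem_ball_self hR) h0
  have hLS := LS_one
  have hGb : 0 < ‖G b‖ := norm_pos_iff.mpr h0
  have hL : 0 ≤ Real.log (M / ‖G b‖) :=
    Real.log_nonneg ((one_le_div hGb).mpr (h.bd b (mem_ball_self hR)))
  have hsub : ball b (R / 32) ⊆ ball b R := ball_subset_ball (by linarith)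
  have key := zf_bd (A := (|(F b).re| + LS * St M F G b) / 2) (by positivity : 0 < R / 32)
    (hS.mono hsub) (h.hG.mono hsub) (fun y hy => h.bd y (hsub hy)) h0 (fun y hy => by
      refine (hA y (hsub hy)).trans (Real.exp_le_exp.mpr ?_)
      have h1 := h.step hR h0 (z := y) (by
        rw [mem_ball, dist_eq_norm] at hy
        exact hy.le)
      have h2 := Complex.abs_re_le_norm (F y - F b)
      rw [Complex.sub_re] at h2
      have h3 := abs_sub_abs_le_abs_sub (F y).re (F b).re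
      linarith) (z := z) (by linarith)
  refine key.trans (Real.exp_le_exp.mpr ?_)
  have e1 : St M F G b = 1 + |(F b).re| + Real.log (M / ‖G b‖) := rfl
  have e2 : (3 + LS) * St M F G b = 3 * (1 + |(F b).re| + Real.log (M / ‖G b‖)) +
    LS * St M F G b := by rw [e1]; ring
  rw [e2]
  have e3 : 0 ≤ LS * St M F G b := by positivity
  linarith [abs_nonneg (F b).re]

/-- the constant of the position bound -/
noncomputable def KP : ℝ := (3 + LS) * (64 + LS)

theorem KP_one : 1 ≤ KP := by unfold KP; nlinarith [LS_one]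

/-- **position, any good base point at distance `R / 32`** -/
theorem pos_near {F G S : E → ℂ} {c z : E} {R M : ℝ} (hR : 0 < R) (h : RG (ball c R) M F G)
    (h0 : G c ≠ 0) (hS : DifferentiableOn ℂ S (ball c R))
    (hA : ∀ y ∈ ball c R, ‖S y‖ * ‖G y‖ ≤ Real.exp (|(F y).re| / 2)) (hz : ‖z - c‖ ≤ R / 32) :
    M * ‖S z‖ ≤ Real.exp (KP * St M F G c) := by
  have hGc : 0 < ‖G c‖ := norm_pos_iff.mpr h0
  have hGM : ‖G c‖ ≤ M := h.bd c (mem_ball_self hR)
  have hM : 0 < M := hGc.trans_le hGM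
  have hLS := LS_one
  obtain ⟨t, ht1, ht2, ht3⟩ := rot (m := 64) (by norm_num) h.hG h.bd (a := z) (by linarith)
  set b : E := c + t • (z - c) with hb
  have hbc : ‖b - c‖ = ‖z - c‖ := by rw [hb, add_sub_cancel_left, norm_smul, ht1, one_mul]
  have hbz : b - z = (t - 1) • (z - c) := by rw [hb, sub_smul, one_smul]; abel
  norm_num at ht3
  have hGb0 : 0 < ‖G b‖ := by
    by_contra hcon
    have h0 : ‖G b‖ = 0 := le_antisymm (not_lt.mp hcon) (norm_nonneg _)
    rw [h0, zero_mul] at ht3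
    have : 0 < ‖G c‖ ^ 64 := by positivity
    linarith
  have hlog : Real.log (M / ‖G b‖) ≤ 64 * Real.log (M / ‖G c‖) := by
    have h1 := Real.log_le_log (by positivity) ht3
    rw [Real.log_pow, Real.log_mul hGb0.ne' (by positivity), Real.log_pow] at h1
    rw [Real.log_div hM.ne' hGb0.ne', Real.log_div hM.ne' hGc.ne']
    push_cast at h1
    linarith
  have hF := h.step hR h0 (z := b) (by rw [hbc]; exact hz)
  have hStb : St M F G b ≤ (64 + LS) * St M F G c := by
    have h1 : |(F b).re| ≤ |(F c).re| + ‖F b - F c‖ := by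
      have h5 := Complex.abs_re_le_norm (F b - F c)
      rw [Complex.sub_re] at h5
      have h6 := abs_sub_abs_le_abs_sub (F b).re (F c).re
      linarith
    have h2 : 0 ≤ Real.log (M / ‖G c‖) := Real.log_nonneg ((one_le_div hGc).mpr hGM)
    have h3 : (64 + LS) * St M F G c = 64 * (1 + |(F c).re| + Real.log (M / ‖G c‖)) +
      LS * St M F G c := by unfold St; ring
    rw [h3]
    unfold St at hF ⊢
    linarith [abs_nonneg (F c).re]
  have hsub : ball b (31 / 32 * R) ⊆ ball c R := by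
    intro y hy
    rw [mem_ball, dist_eq_norm] at hy ⊢
    have : ‖y - c‖ ≤ ‖y - b‖ + ‖b - c‖ := norm_sub_le_norm_sub_add_norm_sub y b c
    rw [hbc] at this
    linarith
  have hzb : ‖z - b‖ ≤ 31 / 32 * R / 512 := by
    rw [norm_sub_rev, hbz, norm_smul]
    have hpi : Real.pi / (64 : ℕ) ≤ 1 / 20 := by
      have := Real.pi_lt_d2
      push_cast
      linarith
    calc ‖t - 1‖ * ‖z - c‖ ≤ 1 / 20 * (R / 32) := by
          gcongr
          exact ht2.trans hpi
      _ ≤ 31 / 32 * R / 512 := by linarith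
  refine (pos_at (by positivity) (h.mono hsub) (norm_pos_iff.mp hGb0) (hS.mono hsub)
    (fun y hy => hA y (hsub hy)) hzb).trans (Real.exp_le_exp.mpr ?_)
  unfold KP
  rw [mul_assoc]
  gcongr

/-- **position at the end of a chain** (same hypotheses as `RG.chain_end`) -/
theorem chain_pos {U : Set E} {M : ℝ} {F G S : E → ℂ} (h : RG U M F G) {z : ℕ → E} {R : ℕ → ℝ}
    {n : ℕ} (hR : ∀ i ≤ n, 0 < R i) (hRR : ∀ i < n, R i ≤ 2 * R (i + 1))
    (hU : ∀ i ≤ n, ball (z i) (R i) ⊆ U) (hz : ∀ i < n, ‖z (i + 1) - z i‖ ≤ R i / 80)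
    (h0 : G (z 0) ≠ 0) (hS : DifferentiableOn ℂ S U)
    (hA : ∀ y ∈ U, ‖S y‖ * ‖G y‖ ≤ Real.exp (|(F y).re| / 2)) {w : E} (hw : ‖w - z n‖ ≤ R n / 80) :
    M * ‖S w‖ ≤ Real.exp (KP * KR ^ n * St M F G (z 0)) := by
  obtain ⟨b, hb1, hb2, hb3, hb4⟩ := h.chain hR hRR hU hz h0
  have hRn := hR n le_rfl
  have hsub : ball b (79 / 80 * R n) ⊆ U := by
    refine Subset.trans ?_ (hU n le_rfl)
    intro y hy
    rw [mem_ball, dist_eq_norm] at hy ⊢
    have : ‖y - z n‖ ≤ ‖y - b‖ + ‖b - z n‖ := norm_sub_le_norm_sub_add_norm_sub y b (z n)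
    linarith
  have hwb : ‖w - b‖ ≤ R n / 40 := by
    have h1 : ‖w - b‖ ≤ ‖w - z n‖ + ‖z n - b‖ := norm_sub_le_norm_sub_add_norm_sub _ (z n) b
    rw [norm_sub_rev (z n) b] at h1
    linarith
  refine (pos_near (by positivity) (h.mono hsub) hb2 (hS.mono hsub) (fun y hy => hA y (hsub hy))
    (z := w) (by linarith)).trans (Real.exp_le_exp.mpr ?_)
  rw [mul_assoc]
  have := KP_one
  gcongr

/-- **position at the end of a composed path** (same hypotheses as `JR.fin`) -/
theorem fin_pos {U : Set E} {a : ℝ} {z w : E} {ρ R : ℝ} (h : JR U a z ρ w (R / 80)) (hR : 0 < R)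
    (hU : ball w R ⊆ U) {M : ℝ} {F G S : E → ℂ} (hRG : RG U M F G) {z' : E} (hz' : ‖z' - z‖ ≤ ρ)
    (h0 : G z' ≠ 0) (hS : DifferentiableOn ℂ S U)
    (hA : ∀ y ∈ U, ‖S y‖ * ‖G y‖ ≤ Real.exp (|(F y).re| / 2)) {v : E} (hv : ‖v - w‖ ≤ R / 80) :
    M * ‖S v‖ ≤ Real.exp (KP * a * St M F G z') := by
  obtain ⟨w', h1, h2, h3, h4⟩ := h M F G hRG z' hz' h0
  have hsub : ball w' (79 / 80 * R) ⊆ U := by
    refine Subset.trans ?_ hU
    intro y hy
    rw [mem_ball, dist_eq_norm] at hy ⊢
    have : ‖y - w‖ ≤ ‖y - w'‖ + ‖w' - w‖ := norm_sub_le_norm_sub_add_norm_sub y w' w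
    linarith
  have hvw : ‖v - w'‖ ≤ R / 40 := by
    have h1' : ‖v - w'‖ ≤ ‖v - w‖ + ‖w - w'‖ := norm_sub_le_norm_sub_add_norm_sub _ w w'
    rw [norm_sub_rev w w'] at h1'
    linarith
  refine (pos_near (by positivity) (hRG.mono hsub) h2 (hS.mono hsub) (fun y hy => hA y (hsub hy))
    (z := v) (by linarith)).trans (Real.exp_le_exp.mpr ?_)
  rw [mul_assoc]
  have := KP_one
  gcongr

/-- the support number from the position and the derivative of the incidence -/
theorem p_bound {q q' S d p : ℂ} (hp : p = q * Complex.cos d + q' * S) :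
    ‖p‖ ≤ ‖q‖ * Real.exp |d.im| + ‖q'‖ * ‖S‖ := by
  rw [hp]
  refine (norm_add_le _ _).trans ?_
  rw [norm_mul, norm_mul]
  gcongr
  exact norm_cos_le' d

end Vale.Agent.P097.H328.W
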